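import Mathlib

open MeasureTheory Set

namespace Vale.Agent.P243

abbrev E3 := EuclideanSpace ℝ (Fin 3)
abbrev E2 := EuclideanSpace ℝ (Fin 2)

/-- determinant of three vectors -/
def det3 (v w u : E3) : ℝ :=
  v 0 * (w 1 * u 2 - w 2 * u 1) - v 1 * (w 0 * u 2 - w 2 * u 0) + v 2 * (w 0 * u 1 - w 1 * u 0)

noncomputable def proj (u : E3) : E3 →L[ℝ] E3 := (ℝ ∙ u)ᗮ.starProjection

lemma inner3 (v w : E3) : inner ℝ v w = v 0 * w 0 + v 1 * w 1 + v 2 * w 2 := by
  simp [PiLp.inner_apply, Fin.sum_univ_three]; ring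

lemma normsq3 (u : E3) : ‖u‖ ^ 2 = u 0 ^ 2 + u 1 ^ 2 + u 2 ^ 2 := by
  rw [← real_inner_self_eq_norm_sq, inner3]; ring

lemma proj_apply {u : E3} (hu : ‖u‖ = 1) (v : E3) : proj u v = v - inner ℝ u v • u := by
  unfold proj
  rw [Submodule.starProjection_orthogonal_val, Submodule.starProjection_unit_singleton ℝ hu]

lemma proj_coord {u : E3} (hu : ‖u‖ = 1) (v : E3) (i : Fin 3) :
    proj u v i = v i - (u 0 * v 0 + u 1 * v 1 + u 2 * v 2) * u i := by
  rw [proj_apply hu, inner3]; simp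

noncomputable def lin (v w : E3) : E2 →ₗ[ℝ] E3 where
  toFun p := p 0 • v + p 1 • w
  map_add' p q := by simp [add_smul]; abel
  map_smul' c p := by simp [smul_add, mul_smul]

lemma lin_apply (v w : E3) (p : E2) : lin v w p = p 0 • v + p 1 • w := rfl

lemma normDet_eq {u : E3} (hu : ‖u‖ = 1) (v w : E3) :
    ((proj u).toLinearMap ∘ₗ lin v w).normDet = |det3 v w u| := by
  have h1 : u 0 ^ 2 + u 1 ^ 2 + u 2 ^ 2 = 1 := by rw [← normsq3, hu]; norm_num
  have h := LinearMap.normDet_sq_eq_det_gram ((proj u).toLinearMap ∘ₗ lin v w)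
    (EuclideanSpace.basisFun (Fin 2) ℝ)
  have h0 := LinearMap.normDet_nonneg ((proj u).toLinearMap ∘ₗ lin v w)
  rw [← sq_eq_sq₀ h0 (abs_nonneg _), sq_abs]
  simp only [RCLike.ofReal_real_eq_id, id] at h
  rw [h, Matrix.det_fin_two]
  simp only [Matrix.gram_apply, LinearMap.comp_apply, lin_apply, ContinuousLinearMap.coe_coe]
  simp only [EuclideanSpace.basisFun_apply, PiLp.single_apply]
  simp only [inner3, proj_coord hu, det3]
  simp
  have h2 : u 2 ^ 2 = 1 - u 0 ^ 2 - u 1 ^ 2 := by linarith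
  linear_combination (exp := 1) (((v 0 * u 0 + v 1 * u 1 + v 2 * u 2) ^ 2 * (w 0 ^ 2 + w 1 ^ 2 + w 2 ^ 2) + (w 0 * u 0 + w 1 * u 1 + w 2 * u 2) ^ 2 * (v 0 ^ 2 + v 1 ^ 2 + v 2 ^ 2) - 2 * (v 0 * u 0 + v 1 * u 1 + v 2 * u 2) * (w 0 * u 0 + w 1 * u 1 + w 2 * u 2) * (v 0 * w 0 + v 1 * w 1 + v 2 * w 2)) - ((v 0 ^ 2 + v 1 ^ 2 + v 2 ^ 2) * (w 0 ^ 2 + w 1 ^ 2 + w 2 ^ 2) - (v 0 * w 0 + v 1 * w 1 + v 2 * w 2) ^ 2)) * h1

/-- the projected image of a planar parameter set -/
def piece (u o v w : E3) (T : Set E2) : Set E3 :=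
  (fun p => proj u o + proj u (lin v w p)) '' T

lemma area_piece {u : E3} (hu : ‖u‖ = 1) (o v w : E3) (T : Set E2) :
    μHE[2] (piece u o v w T) = ENNReal.ofReal |det3 v w u| * volume T := by
  have h := LinearMap.euclideanHausdorffMeasure_image_eq_normDet_mul_volume
    ((proj u).toLinearMap ∘ₗ lin v w) T
  rw [normDet_eq hu] at h
  have hr : Module.finrank ℝ E2 = 2 := by simp
  rw [hr] at h
  rw [← h]
  have hi : Isometry (fun x : E3 => proj u o + x) := isometry_add_left _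
  rw [← hi.euclideanHausdorffMeasure_image (d := 2) (((proj u).toLinearMap ∘ₗ lin v w) '' T)]
  congr 1
  unfold piece
  rw [Set.image_image]
  rfl

def tri : Set E2 := {p | 0 ≤ p 0 ∧ 0 ≤ p 1 ∧ p 0 + p 1 ≤ 1}
def triO : Set E2 := {p | 0 ≤ p 0 ∧ 0 < p 1 ∧ p 0 + p 1 ≤ 1}

lemma vol_aux (S : Set (ℝ × ℝ)) (hS : MeasurableSet S)
    (h : ∀ x, volume (Prod.mk x ⁻¹' S) = (Icc (0:ℝ) 1).indicator (fun x => ENNReal.ofReal (1 - x)) x) :
    volume ((fun p : E2 => (p 0, p 1)) ⁻¹' S) = ENNReal.ofReal (1 / 2) := by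
  have h1 := (volume_preserving_finTwoArrow ℝ).comp (PiLp.volume_preserving_ofLp (Fin 2))
  have h2 := h1.measure_preimage hS.nullMeasurableSet
  have h3 : (fun p : E2 => (p 0, p 1)) = (⇑MeasurableEquiv.finTwoArrow ∘ WithLp.ofLp) := by
    funext p; simp [MeasurableEquiv.finTwoArrow]
  rw [h3, h2, Measure.volume_eq_prod, Measure.prod_apply hS]
  simp_rw [h]
  rw [lintegral_indicator measurableSet_Icc, ← ofReal_integral_eq_lintegral_ofReal]
  · congr 1
    rw [integral_Icc_eq_integral_Ioc, ← intervalIntegral.integral_of_le zero_le_one,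
      intervalIntegral.integral_sub (by simp) (by simp)]
    simp; norm_num
  · exact (continuous_const.sub continuous_id).continuousOn.integrableOn_Icc
  · filter_upwards [ae_restrict_mem measurableSet_Icc] with x hx
    simp; exact hx.2

lemma vol_tri : volume tri = ENNReal.ofReal (1 / 2) := by
  have := vol_aux {q : ℝ × ℝ | 0 ≤ q.1 ∧ 0 ≤ q.2 ∧ q.1 + q.2 ≤ 1} (by measurability) (by
    intro x
    by_cases hx : x ∈ Icc (0:ℝ) 1
    · rw [indicator_of_mem hx]
      have : Prod.mk x ⁻¹' {q : ℝ × ℝ | 0 ≤ q.1 ∧ 0 ≤ q.2 ∧ q.1 + q.2 ≤ 1} = Icc 0 (1 - x) := by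
        ext y; simp [hx.1]; intro _; constructor <;> intro h <;> linarith
      rw [this]; simp
    · rw [indicator_of_notMem hx]
      have : Prod.mk x ⁻¹' {q : ℝ × ℝ | 0 ≤ q.1 ∧ 0 ≤ q.2 ∧ q.1 + q.2 ≤ 1} = ∅ := by
        ext y; simp; intro h1 h2; by_contra h3; apply hx; constructor <;> linarith
      rw [this]; simp)
  exact this

lemma vol_triO : volume triO = ENNReal.ofReal (1 / 2) := by
  have := vol_aux {q : ℝ × ℝ | 0 ≤ q.1 ∧ 0 < q.2 ∧ q.1 + q.2 ≤ 1} (by measurability) (by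
    intro x
    by_cases hx : x ∈ Icc (0:ℝ) 1
    · rw [indicator_of_mem hx]
      have : Prod.mk x ⁻¹' {q : ℝ × ℝ | 0 ≤ q.1 ∧ 0 < q.2 ∧ q.1 + q.2 ≤ 1} = Ioc 0 (1 - x) := by
        ext y; simp [hx.1]; intro _; constructor <;> intro h <;> linarith
      rw [this]; simp
    · rw [indicator_of_notMem hx]
      have : Prod.mk x ⁻¹' {q : ℝ × ℝ | 0 ≤ q.1 ∧ 0 < q.2 ∧ q.1 + q.2 ≤ 1} = ∅ := by
        ext y; simp; intro h1 h2; by_contra h3; apply hx; constructor <;> linarith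
      rw [this]; simp)
  exact this

lemma isCompact_tri : IsCompact tri := by
  apply Metric.isCompact_of_isClosed_isBounded
  · have h0 : Continuous fun p : E2 => p 0 := by fun_prop
    have h1 : Continuous fun p : E2 => p 1 := by fun_prop
    exact (isClosed_le continuous_const h0).inter ((isClosed_le continuous_const h1).inter
      (isClosed_le (h0.add h1) continuous_const))
  · rw [Metric.isBounded_iff_subset_closedBall 0]
    refine ⟨2, fun p hp => ?_⟩
    obtain ⟨h0, h1, h2⟩ := hp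
    rw [mem_closedBall_zero_iff, EuclideanSpace.norm_eq]
    apply Real.sqrt_le_iff.mpr
    simp [Fin.sum_univ_two]
    nlinarith

lemma measurableSet_piece (u o v w : E3) : MeasurableSet (piece u o v w tri) := by
  apply IsCompact.measurableSet
  apply isCompact_tri.image
  have : Continuous (lin v w) := (lin v w).continuous_of_finiteDimensional
  fun_prop

lemma piece_subset (u o v w : E3) (T : Set E2) : piece u o v w T ⊆ ((ℝ ∙ u)ᗮ : Submodule ℝ E3) := by
  rintro _ ⟨p, -, rfl⟩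
  exact Submodule.add_mem _ (Submodule.starProjection_apply_mem _ _)
    (Submodule.starProjection_apply_mem _ _)

lemma area_tri {u : E3} (hu : ‖u‖ = 1) (o v w : E3) :
    μHE[2] (piece u o v w tri) = ENNReal.ofReal (|det3 v w u| / 2) := by
  rw [area_piece hu, vol_tri, ← ENNReal.ofReal_mul (abs_nonneg _)]; congr 1; ring

lemma area_triO {u : E3} (hu : ‖u‖ = 1) (o v w : E3) :
    μHE[2] (piece u o v w triO) = ENNReal.ofReal (|det3 v w u| / 2) := by
  rw [area_piece hu, vol_triO, ← ENNReal.ofReal_mul (abs_nonneg _)]; congr 1; ring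

lemma piece_subset_proj {K : Set E3} (hK : Convex ℝ K) (u : E3) {p r q : E3}
    (hp : p ∈ K) (hr : r ∈ K) (hq : q ∈ K) :
    piece u r (p - r) (q - r) triO ⊆ proj u '' K := by
  rintro _ ⟨t, ⟨h0, h1, h2⟩, rfl⟩
  refine ⟨r + lin (p - r) (q - r) t, ?_, by simp⟩
  have := hK.sum_mem (t := Finset.univ) (w := ![1 - t 0 - t 1, t 0, t 1]) (z := ![r, p, q])
    (by intro i _; fin_cases i <;> simp <;> linarith) (by simp [Fin.sum_univ_three]; ring)
    (by intro i _; fin_cases i <;> simpa)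
  convert this using 1
  simp [Fin.sum_univ_three, lin_apply, sub_smul, smul_sub]; abel

lemma det_piece {u : E3} (hu : ‖u‖ = 1) (o v w : E3) (t : E2) :
    det3 v (proj u o + proj u (lin v w t) - proj u o) u = t 1 * det3 v w u := by
  simp only [add_sub_cancel_left, det3, proj_coord hu, lin_apply]
  simp; ring

lemma area_ge_tri {K : Set E3} (hK : Convex ℝ K) {u : E3} (hu : ‖u‖ = 1) {p r q : E3}
    (hp : p ∈ K) (hr : r ∈ K) (hq : q ∈ K) :
    ENNReal.ofReal (|det3 (p - r) (q - r) u| / 2) ≤ μHE[2] (proj u '' K) := by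
  rw [← area_triO hu r]
  exact measure_mono (piece_subset_proj hK u hp hr hq)

lemma area_ge_opp {K : Set E3} (hK : Convex ℝ K) {u : E3} (hu : ‖u‖ = 1) {p r q s : E3}
    (hp : p ∈ K) (hr : r ∈ K) (hq : q ∈ K) (hs : s ∈ K)
    (h1 : 0 < det3 (p - r) (q - r) u) (h2 : det3 (p - r) (s - r) u < 0) :
    ENNReal.ofReal ((det3 (p - r) (q - r) u - det3 (p - r) (s - r) u) / 2)
      ≤ μHE[2] (proj u '' K) := by
  have hm : MeasurableSet {x : E3 | 0 < det3 (p - r) (x - proj u r) u} := by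
    apply IsOpen.measurableSet
    apply isOpen_lt continuous_const
    unfold det3
    fun_prop
  rw [← measure_inter_add_sdiff _ hm]
  have e : (det3 (p - r) (q - r) u - det3 (p - r) (s - r) u) / 2 =
      |det3 (p - r) (q - r) u| / 2 + |det3 (p - r) (s - r) u| / 2 := by
    rw [abs_of_pos h1, abs_of_neg h2]; ring
  rw [e, ENNReal.ofReal_add (by positivity) (by positivity), ← area_triO hu r, ← area_triO hu r]
  apply add_le_add
  · apply measure_mono
    intro x hx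
    refine ⟨piece_subset_proj hK u hp hr hq hx, ?_⟩
    obtain ⟨t, ⟨-, ht, -⟩, rfl⟩ := hx
    show 0 < det3 _ _ _
    rw [det_piece hu]; positivity
  · apply measure_mono
    intro x hx
    refine ⟨piece_subset_proj hK u hp hr hs hx, ?_⟩
    obtain ⟨t, ⟨-, ht, -⟩, rfl⟩ := hx
    show ¬ 0 < det3 _ _ _
    rw [det_piece hu]; nlinarith

lemma area_ge_quad {K : Set E3} (hK : Convex ℝ K) {u : E3} (hu : ‖u‖ = 1) {p r q s : E3}
    (hp : p ∈ K) (hr : r ∈ K) (hq : q ∈ K) (hs : s ∈ K) :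
    ENNReal.ofReal (|det3 (p - r) (q - s) u| / 2) ≤ μHE[2] (proj u '' K) := by
  have e : det3 (p - r) (q - s) u = det3 (p - r) (q - r) u - det3 (p - r) (s - r) u := by
    simp [det3]; ring
  rw [e]
  have a1 := area_ge_tri hK hu hp hr hq
  have a2 := area_ge_tri hK hu hp hr hs
  set A := det3 (p - r) (q - r) u
  set B := det3 (p - r) (s - r) u
  by_cases h1 : 0 < A ∧ B < 0
  · refine le_trans (le_of_eq ?_) (area_ge_opp hK hu hp hr hq hs h1.1 h1.2)
    rw [abs_of_pos (by linarith [h1.1, h1.2])]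
  by_cases h2 : 0 < B ∧ A < 0
  · refine le_trans (le_of_eq ?_) (area_ge_opp hK hu hp hr hs hq h2.1 h2.2)
    rw [abs_of_neg (by linarith [h2.1, h2.2])]; congr 1; ring
  have : |A - B| ≤ |A| ∨ |A - B| ≤ |B| := by
    push Not at h1 h2
    rcases lt_trichotomy A 0 with hA | hA | hA <;> rcases lt_trichotomy B 0 with hB | hB | hB <;>
      cases abs_cases (A - B) <;> cases abs_cases A <;> cases abs_cases B <;>
      first | (left; linarith) | (right; linarith) | (exfalso; linarith [h1 hA]) | (exfalso; linarith [h2 hB])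
  rcases this with h | h
  · exact le_trans (ENNReal.ofReal_le_ofReal (by linarith)) a1
  · exact le_trans (ENNReal.ofReal_le_ofReal (by linarith)) a2

/-- membership in the cylinder -/
lemma mem_cyl {w : E3} (hw : w ≠ 0) (o v1 v2 P : E3) (l m θ : ℝ) (hl : 0 ≤ l) (hm : 0 ≤ m)
    (hlm : l + m ≤ 1) (hP : P = o + l • v1 + m • v2 + θ • w) :
    ∃ b ∈ piece (‖w‖⁻¹ • w) o v1 v2 tri, ∃ t : ℝ, P = b + t • (‖w‖⁻¹ • w) := by
  have hn : ‖w‖ ≠ 0 := norm_ne_zero_iff.mpr hw
  have hu : ‖(‖w‖⁻¹ • w)‖ = 1 := by rw [norm_smul]; simp [hn]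
  set u := ‖w‖⁻¹ • w with hu'
  refine ⟨_, ⟨!₂[l, m], ⟨by simpa, by simpa, by simpa⟩, rfl⟩,
    inner ℝ u o + inner ℝ u (lin v1 v2 !₂[l, m]) + θ * ‖w‖, ?_⟩
  simp only [proj_apply hu]
  have hw' : w = ‖w‖ • u := by rw [hu', smul_smul]; simp [hn]
  have : θ • w = (θ * ‖w‖) • u := by rw [mul_smul, ← hw']
  rw [hP, this, lin_apply]
  simp [add_smul]; abel

end Vale.Agent.P243
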