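import Mathlib

open MeasureTheory Set

namespace Vale.Agent.P243

/-- Euclidean three-space. -/
abbrev Space := EuclideanSpace ℝ (Fin 3)

/-- planar area: the Euclidean-normalised two-dimensional Hausdorff measure -/
noncomputable def area (B : Set Space) : ENNReal := μHE[2] B

/-- the plane through the origin orthogonal to `u` -/
noncomputable def perp (u : Space) : Submodule ℝ Space := (ℝ ∙ u)ᗮ

/-- the area of the orthogonal projection of `K` onto the plane orthogonal to `u` -/
noncomputable def projArea (K : Set Space) (u : Space) : ENNReal :=
  area ((perp u).starProjection '' K)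

/-- the least area of an orthogonal projection of `K` onto a plane -/
noncomputable def minArea (K : Set Space) : ENNReal :=
  ⨅ (v : Space) (_ : ‖v‖ = 1), projArea K v

/-- the cylinder with base `B` and direction `u` -/
def cylSet (B : Set Space) (u : Space) : Set Space := {p | ∃ b ∈ B, ∃ t : ℝ, p = b + t • u}

/-- a convex body -/
def IsConvexBody (K : Set Space) : Prop := IsCompact K ∧ Convex ℝ K ∧ (interior K).Nonempty

/-- `B` is an admissible base for the unit direction `u` -/
def IsBase (B : Set Space) (u : Space) : Prop :=
  ‖u‖ = 1 ∧ B ⊆ (perp u : Set Space) ∧ MeasurableSet B ∧ area B ≠ ⊤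

end Vale.Agent.P243
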