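import Vale.Agent.P243.Area

open MeasureTheory Set

namespace Vale.Agent.P243

noncomputable def H : ℝ := Real.sqrt 2
lemma H_sq : H ^ 2 = 2 := Real.sq_sqrt (by norm_num)
lemma H_pos : 0 < H := Real.sqrt_pos.mpr (by norm_num)
lemma H_ge : 1 ≤ H := by nlinarith [H_sq, H_pos]
lemma H_le : H ≤ 2 := by nlinarith [H_sq, H_pos]

def KK : Set E3 := {p | |p 1| ≤ p 2 / H ∧ |p 0| ≤ 1 - p 2 / H}

lemma convex_KK : Convex ℝ KK := by
  intro p hp q hq a b ha hb hab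
  obtain ⟨hp1, hp2⟩ := hp
  obtain ⟨hq1, hq2⟩ := hq
  rw [abs_le] at hp1 hp2 hq1 hq2
  have e : (a * p 2 + b * q 2) / H = a * (p 2 / H) + b * (q 2 / H) := by ring
  constructor
  · simp only [PiLp.add_apply, PiLp.smul_apply, smul_eq_mul, e, abs_le]
    constructor <;> nlinarith [hp1.1, hp1.2, hq1.1, hq1.2]
  · simp only [PiLp.add_apply, PiLp.smul_apply, smul_eq_mul, e, abs_le]
    constructor <;> nlinarith [hp2.1, hp2.2, hq2.1, hq2.2]

lemma isCompact_KK : IsCompact KK := by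
  apply Metric.isCompact_of_isClosed_isBounded
  · have c1 : IsClosed {p : E3 | |p 1| ≤ p 2 / H} := isClosed_le (by fun_prop) (by fun_prop)
    have c2 : IsClosed {p : E3 | |p 0| ≤ 1 - p 2 / H} := isClosed_le (by fun_prop) (by fun_prop)
    exact c1.inter c2
  · rw [Metric.isBounded_iff_subset_closedBall 0]
    refine ⟨3, fun p hp => ?_⟩
    obtain ⟨h0, h1⟩ := hp
    rw [mem_closedBall_zero_iff, ← sq_le_sq₀ (norm_nonneg _) (by norm_num), normsq3]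
    have hs0 : 0 ≤ p 2 / H := le_trans (abs_nonneg _) h0
    have hs1 : p 2 / H ≤ 1 := by linarith [abs_nonneg (p 0)]
    have e : p 2 = H * (p 2 / H) := by field_simp [H_pos.ne']
    rw [abs_le] at h0 h1
    rw [e]
    generalize p 2 / H = s at *
    have : (H * s) ^ 2 = 2 * s ^ 2 := by rw [mul_pow, H_sq]
    rw [this]
    nlinarith [h0.1, h0.2, h1.1, h1.2]

lemma interior_KK : (interior KK).Nonempty := by
  have c1 : IsOpen {p : E3 | |p 1| < p 2 / H} := isOpen_lt (by fun_prop) (by fun_prop)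
  have c2 : IsOpen {p : E3 | |p 0| < 1 - p 2 / H} := isOpen_lt (by fun_prop) (by fun_prop)
  have ho : IsOpen {p : E3 | |p 1| < p 2 / H ∧ |p 0| < 1 - p 2 / H} := c1.inter c2
  have hsub : {p : E3 | |p 1| < p 2 / H ∧ |p 0| < 1 - p 2 / H} ⊆ KK :=
    fun p hp => ⟨hp.1.le, hp.2.le⟩
  refine ⟨!₂[0, 0, H / 2], interior_maximal hsub ho ?_⟩
  have : H / 2 / H = 1 / 2 := by field_simp [H_pos.ne']
  simp [this]; norm_num

lemma amin_ineq (a b c : ℝ) (ha : 0 ≤ a) (hb : 0 ≤ b) (hc : 0 ≤ c) (h : a ^ 2 + b ^ 2 + c ^ 2 = 1)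
    (h1 : 2 * c < H) (h2 : H * b + c < H) (h3 : H * a + c < H) (h4 : H * a + H * b < H) : False := by
  have hp := H_pos
  obtain ⟨d, rfl⟩ : ∃ d, c = H * d := ⟨c / H, by field_simp⟩
  have hd : 0 ≤ d := by by_contra hd; nlinarith
  have g1 : 2 * d < 1 := by nlinarith
  have g2 : b + d < 1 := by nlinarith
  have g3 : a + d < 1 := by nlinarith
  have g4 : a + b < 1 := by nlinarith
  rw [mul_pow, H_sq] at h
  rcases le_total d a with h5 | h5
  · rcases le_total d b with h6 | h6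
    · nlinarith [mul_nonneg ha hb, mul_nonneg (sub_nonneg.2 h5) (sub_nonneg.2 h6)]
    · nlinarith
  · nlinarith

lemma area_proj_ge {u : E3} (hu : ‖u‖ = 1) : ENNReal.ofReal H ≤ μHE[2] (proj u '' KK) := by
  have h1 : u 0 ^ 2 + u 1 ^ 2 + u 2 ^ 2 = 1 := by rw [← normsq3, hu]; norm_num
  have hp := H_pos
  have hh : H / H = 1 := div_self hp.ne'
  have P1 : (!₂[1, 0, 0] : E3) ∈ KK := by simp [KK]
  have P2 : (!₂[-1, 0, 0] : E3) ∈ KK := by simp [KK]
  have P3 : (!₂[0, 1, H] : E3) ∈ KK := by simp [KK, hh]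
  have P4 : (!₂[0, -1, H] : E3) ∈ KK := by simp [KK, hh]
  by_contra hcon
  rw [not_le] at hcon
  have key : ∀ {p r q s : E3}, p ∈ KK → r ∈ KK → q ∈ KK → s ∈ KK →
      |det3 (p - r) (q - s) u| < 2 * H := by
    intro p r q s hp' hr hq hs
    have := lt_of_le_of_lt (area_ge_quad convex_KK hu hp' hr hq hs) hcon
    rw [ENNReal.ofReal_lt_ofReal_iff hp] at this
    linarith
  have k1 := key P1 P2 P3 P4
  have k2 := key P1 P2 P3 P2
  have k3 := key P1 P2 P4 P2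
  have k4 := key P3 P4 P1 P4
  have k5 := key P3 P4 P2 P4
  have k6 := key P1 P3 P2 P4
  have k7 := key P1 P4 P2 P3
  simp only [det3, PiLp.sub_apply, abs_lt] at k1 k2 k3 k4 k5 k6 k7
  simp at k1 k2 k3 k4 k5 k6 k7
  apply amin_ineq |u 0| |u 1| |u 2| (abs_nonneg _) (abs_nonneg _) (abs_nonneg _) (by simpa using h1)
  · rcases abs_cases (u 2) with ⟨h, -⟩ | ⟨h, -⟩ <;> rw [h] <;> linarith [k1.1, k1.2]
  · rcases abs_cases (u 2) with ⟨h, -⟩ | ⟨h, -⟩ <;> rcases abs_cases (u 1) with ⟨h', -⟩ | ⟨h', -⟩ <;>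
      rw [h, h'] <;> linarith [k2.1, k2.2, k3.1, k3.2]
  · rcases abs_cases (u 2) with ⟨h, -⟩ | ⟨h, -⟩ <;> rcases abs_cases (u 0) with ⟨h', -⟩ | ⟨h', -⟩ <;>
      rw [h, h'] <;> linarith [k4.1, k4.2, k5.1, k5.2]
  · rcases abs_cases (u 0) with ⟨h, -⟩ | ⟨h, -⟩ <;> rcases abs_cases (u 1) with ⟨h', -⟩ | ⟨h', -⟩ <;>
      rw [h, h'] <;> linarith [k6.1, k6.2, k7.1, k7.2]

/-! parameters -/
noncomputable def κ : ℝ := 1 / 1000
noncomputable def η : ℝ := 1 / 1000000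
@[irreducible] def M : ℕ := 1000000
lemma M_eq : M = 1000000 := by unfold M; rfl
noncomputable def tt (i : ℕ) : ℝ := -1 + 2 * i * η
noncomputable def τ (i : ℕ) : ℝ := -1 + (2 * i + 1) * η
noncomputable def al (i : ℕ) : ℝ := -κ * (1 + τ i ^ 2 - η ^ 2)
noncomputable def sg (i : ℕ) : ℝ := -2 * κ * τ i
noncomputable def SS (i : ℕ) : ℝ := 1 / 2 + κ ^ 2 * (τ i ^ 2 + τ i ^ 4) + 16 * κ ^ 3

lemma tt_zero : tt 0 = -1 := by simp [tt]
lemma tt_M : tt M = 1 := by simp [tt, M_eq, η]; norm_num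
lemma tt_eq (i : ℕ) : tt i = τ i - η := by simp [tt, τ]; ring
lemma tt_succ (i : ℕ) : tt (i + 1) = τ i + η := by simp [tt, τ]; ring
lemma abs_τ {i : ℕ} (hi : i < M) : |τ i| ≤ 1 := by
  have : (i : ℝ) + 1 ≤ 1000000 := by rw [M_eq] at hi; exact_mod_cast hi
  have h0 : (0 : ℝ) ≤ i := Nat.cast_nonneg i
  rw [abs_le]; unfold τ η; constructor <;> linarith
lemma SS_pos (i : ℕ) : 0 < SS i := by unfold SS κ; positivity

lemma exists_sector (x y s : ℝ) (h : |y| ≤ s) :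
    ∃ i < M, (τ i - η) * (s - x * sg i) ≤ y - x * al i ∧ y - x * al i ≤ (τ i + η) * (s - x * sg i) := by
  let F : ℕ → ℝ := fun i => y - tt i * s - x * κ * (tt i ^ 2 - 1)
  have h0 : 0 ≤ F 0 := by simp only [F, tt_zero]; rw [abs_le] at h; linarith [h.1]
  have hM : F M ≤ 0 := by simp only [F, tt_M]; rw [abs_le] at h; linarith [h.2]
  have : ∃ i < M, 0 ≤ F i ∧ F (i + 1) ≤ 0 := by
    by_contra hc
    push Not at hc
    have : ∀ i ≤ M, 0 ≤ F i ∧ (0 < i → 0 < F i) := by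
      intro i
      induction i with
      | zero => intro _; exact ⟨h0, fun h => absurd h (lt_irrefl 0)⟩
      | succ n ih =>
        intro hn
        have := hc n hn (ih (Nat.le_of_succ_le hn)).1
        exact ⟨this.le, fun _ => this⟩
    have := (this M le_rfl).2 (by norm_num [M_eq])
    linarith
  obtain ⟨i, hi, h1, h2⟩ := this
  refine ⟨i, hi, ?_, ?_⟩
  · simp only [F, tt_eq] at h1
    unfold sg al; nlinarith
  · simp only [F, tt_succ] at h2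
    unfold sg al; nlinarith

lemma cover_ineq (x y s t r a b e1 e2 p q : ℝ) (hx : |x| ≤ 1) (hy : |y| ≤ 1)
    (ht : |t| ≤ 1) (hr : |r| ≤ 1)
    (hp : p = 1 + t ^ 2 - η ^ 2) (hq : q = 1 + r ^ 2 - η ^ 2)
    (ha : a = s + 2 * κ * t * x) (hb : b = 1 - s + 2 * κ * r * y)
    (he1 : e1 = y + κ * p * x - t * a) (he2 : e2 = -x + κ * q * y - r * b)
    (h1 : |e1| ≤ η * a) (h2 : |e2| ≤ η * b)
    (hA : 1 / 2 + κ ^ 2 * (t ^ 2 + t ^ 4) + 16 * κ ^ 3 < a)
    (hB : 1 / 2 + κ ^ 2 * (r ^ 2 + r ^ 4) + 16 * κ ^ 3 < b) : False := by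
  have hη : η = κ ^ 2 := by unfold η κ; norm_num
  have hκ : κ = 1 / 1000 := rfl
  have ht2 : t ^ 2 ≤ 1 := by rw [← sq_abs]; nlinarith [abs_nonneg t]
  have hr2 : r ^ 2 ≤ 1 := by rw [← sq_abs]; nlinarith [abs_nonneg r]
  have mul1 : ∀ {u v U V : ℝ}, |u| ≤ U → |v| ≤ V → |u * v| ≤ U * V := by
    intro u v U V hu hv
    rw [abs_mul]; exact mul_le_mul hu hv (abs_nonneg _) (le_trans (abs_nonneg _) hu)
  have hp0 : 0 ≤ p := by rw [hp, hη, hκ]; nlinarith [sq_nonneg t]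
  have hq0 : 0 ≤ q := by rw [hq, hη, hκ]; nlinarith [sq_nonneg r]
  have hp1 : p ≤ 1 + t ^ 2 := by rw [hp]; nlinarith [sq_nonneg η]
  have hq1 : q ≤ 1 + r ^ 2 := by rw [hq]; nlinarith [sq_nonneg η]
  have hp2 : |p| ≤ 2 := by rw [abs_of_nonneg hp0]; linarith
  have hq2 : |q| ≤ 2 := by rw [abs_of_nonneg hq0]; linarith
  have htx := abs_le.1 (mul1 ht hx)
  have hry := abs_le.1 (mul1 hr hy)
  have hsum : a + b = 1 + 2 * κ * (t * x + r * y) := by rw [ha, hb]; ring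
  have hab : a + b ≤ 1 + 4 / 1000 := by rw [hsum, hκ]; linarith [htx.2, hry.2]
  have hA0 : 1 / 2 < a := by
    have : 0 ≤ κ ^ 2 * (t ^ 2 + t ^ 4) + 16 * κ ^ 3 := by rw [hκ]; positivity
    linarith
  have hB0 : 1 / 2 < b := by
    have : 0 ≤ κ ^ 2 * (r ^ 2 + r ^ 4) + 16 * κ ^ 3 := by rw [hκ]; positivity
    linarith
  have h1' : |e1| ≤ 1 / 1000000 := by
    refine h1.trans ?_; unfold η; linarith
  have h2' : |e2| ≤ 1 / 1000000 := by
    refine h2.trans ?_; unfold η; linarith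
  have iden : t * x + r * y = t * r * (a - b) + (r * e1 - t * e2) +
      κ * (q * t ^ 2 * a + p * r ^ 2 * b + q * t * e1 + p * r * e2) - κ ^ 2 * (p * q * (t * x) + p * q * (r * y)) := by
    rw [he1, he2]; ring
  have hab2 : |a - b| ≤ a + b - 1 := by rw [abs_le]; constructor <;> linarith
  have b1 := (abs_le.1 (mul1 (mul1 ht hr) hab2)).2
  have b2 := abs_le.1 (mul1 hr h1')
  have b3 := abs_le.1 (mul1 ht h2')
  have b4 := abs_le.1 (mul1 (mul1 hq2 ht) h1')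
  have b5 := abs_le.1 (mul1 (mul1 hp2 hr) h2')
  have b6 := abs_le.1 (mul1 (mul1 hp2 hq2) (mul1 ht hx))
  have b7 := abs_le.1 (mul1 (mul1 hp2 hq2) (mul1 hr hy))
  have qt : q * t ^ 2 ≤ (1 + r ^ 2) * t ^ 2 := mul_le_mul_of_nonneg_right hq1 (sq_nonneg _)
  have pr : p * r ^ 2 ≤ (1 + t ^ 2) * r ^ 2 := mul_le_mul_of_nonneg_right hp1 (sq_nonneg _)
  have qt2 : q * t ^ 2 ≤ 2 := by
    have := mul_le_mul (le_trans (le_abs_self q) hq2) ht2 (sq_nonneg _) (by norm_num); linarith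
  have pr2 : p * r ^ 2 ≤ 2 := by
    have := mul_le_mul (le_trans (le_abs_self p) hp2) hr2 (sq_nonneg _) (by norm_num); linarith
  have b8 : q * t ^ 2 * a ≤ q * t ^ 2 / 2 + 2 * (a - 1 / 2) := by
    have := mul_le_mul_of_nonneg_right qt2 (sub_nonneg.2 hA0.le); linarith
  have b9 : p * r ^ 2 * b ≤ p * r ^ 2 / 2 + 2 * (b - 1 / 2) := by
    have := mul_le_mul_of_nonneg_right pr2 (sub_nonneg.2 hB0.le); linarith
  have b10 : q * t ^ 2 + p * r ^ 2 ≤ t ^ 2 + t ^ 4 + r ^ 2 + r ^ 4 := by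
    have := sq_nonneg (t ^ 2 - r ^ 2)
    linarith
  have b11 : q * t ^ 2 + p * r ^ 2 ≤ 4 := by linarith
  rw [iden, hκ] at hsum
  rw [hκ] at hA hB
  linarith [b2.2, b3.1, b4.2, b5.2, b6.1, b7.1]

noncomputable def wT (i : ℕ) : E3 := !₂[1, al i, H * sg i]
noncomputable def wB (i : ℕ) : E3 := !₂[-al i, 1, -(H * sg i)]
noncomputable def oT : E3 := !₂[0, 0, 0]
noncomputable def oB : E3 := !₂[0, 0, H]
noncomputable def vT (i : ℕ) (t : ℝ) : E3 := !₂[0, SS i * t, SS i * H]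
noncomputable def vB (i : ℕ) (t : ℝ) : E3 := !₂[-(SS i * t), 0, -(SS i * H)]

lemma wT_ne (i : ℕ) : wT i ≠ 0 := by
  intro h; have := congrArg (fun v : E3 => v 0) h; simp [wT] at this
lemma wB_ne (i : ℕ) : wB i ≠ 0 := by
  intro h; have := congrArg (fun v : E3 => v 1) h; simp [wB] at this

noncomputable def ww : Fin M ⊕ Fin M → E3
  | Sum.inl i => wT i
  | Sum.inr i => wB i
noncomputable def uu (k : Fin M ⊕ Fin M) : E3 := ‖ww k‖⁻¹ • ww k
noncomputable def BB : Fin M ⊕ Fin M → Set E3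
  | Sum.inl i => piece (uu (Sum.inl i)) oT (vT i (τ i - η)) (vT i (τ i + η)) tri
  | Sum.inr i => piece (uu (Sum.inr i)) oB (vB i (τ i - η)) (vB i (τ i + η)) tri

lemma ww_ne (k : Fin M ⊕ Fin M) : ww k ≠ 0 := by
  rcases k with i | i
  · exact wT_ne i
  · exact wB_ne i

lemma norm_uu (k : Fin M ⊕ Fin M) : ‖uu k‖ = 1 := by
  have hn : ‖ww k‖ ≠ 0 := norm_ne_zero_iff.mpr (ww_ne k)
  unfold uu; rw [norm_smul]; simp [hn]

lemma η_pos : 0 < η := by unfold η; norm_num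

lemma covered (P : E3) (hP : P ∈ KK) : ∃ k, ∃ b ∈ BB k, ∃ t : ℝ, P = b + t • uu k := by
  obtain ⟨h1, h2⟩ := hP
  have e : P 2 = H * (P 2 / H) := by field_simp [H_pos.ne']
  set s := P 2 / H with hs
  set x := P 0 with hx
  set y := P 1 with hy
  have hη := η_pos
  obtain ⟨i, hi, i1, i2⟩ := exists_sector x y s h1
  obtain ⟨j, hj, j1, j2⟩ := exists_sector y (-x) (1 - s) (by rwa [abs_neg])
  by_cases hA : s - x * sg i ≤ SS i
  · refine ⟨Sum.inl ⟨i, hi⟩, ?_⟩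
    have hS := SS_pos i
    apply mem_cyl (wT_ne i) oT _ _ P (((τ i + η) * (s - x * sg i) - (y - x * al i)) / (2 * η * SS i))
      (((y - x * al i) - (τ i - η) * (s - x * sg i)) / (2 * η * SS i)) x
    · apply div_nonneg (by linarith) (by positivity)
    · apply div_nonneg (by linarith) (by positivity)
    · rw [← add_div, div_le_one (by positivity)]; nlinarith
    · ext k; fin_cases k
      · simp [oT, vT, wT, hx]
      · simp [oT, vT, wT, ← hy]; field_simp; ring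
      · simp [oT, vT, wT]; rw [e]; field_simp; ring
  by_cases hB : 1 - s - y * sg j ≤ SS j
  · refine ⟨Sum.inr ⟨j, hj⟩, ?_⟩
    have hS := SS_pos j
    apply mem_cyl (wB_ne j) oB _ _ P
      (((τ j + η) * (1 - s - y * sg j) - (-x - y * al j)) / (2 * η * SS j))
      (((-x - y * al j) - (τ j - η) * (1 - s - y * sg j)) / (2 * η * SS j)) y
    · apply div_nonneg (by linarith) (by positivity)
    · apply div_nonneg (by linarith) (by positivity)
    · rw [← add_div, div_le_one (by positivity)]; nlinarith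
    · ext k; fin_cases k
      · simp [oB, vB, wB, ← hx]; field_simp; ring
      · simp [oB, vB, wB, hy]
      · simp [oB, vB, wB]; rw [e]; field_simp; ring
  exfalso
  rw [not_le] at hA hB
  have hs0 : 0 ≤ s := le_trans (abs_nonneg _) h1
  have hs1 : s ≤ 1 := by linarith [abs_nonneg x]
  apply cover_ineq x y s (τ i) (τ j) (s - x * sg i) (1 - s - y * sg j) _ _ _ _
    (by linarith) (by linarith) (abs_τ hi) (abs_τ hj) rfl rfl (by unfold sg; ring)
    (by unfold sg; ring) rfl rfl ?_ ?_ hA hB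
  · unfold al at i1 i2
    rw [abs_le]; constructor <;> nlinarith
  · unfold al at j1 j2
    rw [abs_le]; constructor <;> nlinarith

noncomputable def ar (i : ℕ) : ℝ := H * η * SS i ^ 2 / Real.sqrt (1 + al i ^ 2 + 2 * sg i ^ 2)

lemma norm_wT (i : ℕ) : ‖wT i‖ = Real.sqrt (1 + al i ^ 2 + 2 * sg i ^ 2) := by
  rw [← Real.sqrt_sq (norm_nonneg (wT i)), normsq3]; congr 1
  simp [wT, mul_pow, H_sq]
lemma norm_wB (i : ℕ) : ‖wB i‖ = Real.sqrt (1 + al i ^ 2 + 2 * sg i ^ 2) := by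
  rw [← Real.sqrt_sq (norm_nonneg (wB i)), normsq3]; congr 1
  simp [wB, mul_pow, H_sq]; ring

lemma ar_nonneg (i : ℕ) : 0 ≤ ar i := by
  have := H_pos; have := η_pos
  unfold ar; positivity

lemma area_BB (k : Fin M ⊕ Fin M) :
    μHE[2] (BB k) = ENNReal.ofReal (ar (Sum.elim Fin.val Fin.val k)) := by
  rcases k with i | i
  · simp only [BB, Sum.elim_inl]
    rw [area_tri (norm_uu _)]
    congr 1
    have : det3 (vT i (τ i - η)) (vT i (τ i + η)) (uu (Sum.inl i)) = - (2 * ar i) := by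
      simp only [uu, ww, norm_wT, ar, det3]
      simp [vT, wT]; ring
    rw [this, abs_neg, abs_of_nonneg (by linarith [ar_nonneg i])]; ring
  · simp only [BB, Sum.elim_inr]
    rw [area_tri (norm_uu _)]
    congr 1
    have : det3 (vB i (τ i - η)) (vB i (τ i + η)) (uu (Sum.inr i)) = (2 * ar i) := by
      simp only [uu, ww, norm_wB, ar, det3]
      simp [vB, wB]; ring
    rw [this, abs_of_nonneg (by linarith [ar_nonneg i])]; ring

noncomputable def PP (t : ℝ) : ℝ := 7 / 5 * t ^ 5 - 2 / 3 * t ^ 3 - t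

lemma inv_sqrt_le (D : ℝ) (h0 : 0 ≤ D) (h1 : D ≤ 1) :
    1 / Real.sqrt (1 + D) ≤ 1 - D / 2 + D ^ 2 / 2 := by
  have hpos : 0 < Real.sqrt (1 + D) := Real.sqrt_pos.mpr (by linarith)
  have hq : 0 < 1 - D / 2 + D ^ 2 / 2 := by nlinarith
  rw [div_le_iff₀ hpos, ← div_le_iff₀' hq]
  apply Real.le_sqrt_of_sq_le
  rw [div_pow, div_le_iff₀ (by positivity)]
  have h3 : 0 ≤ D ^ 3 * (3 - D) := mul_nonneg (by positivity) (by linarith)
  nlinarith [pow_nonneg h0 5, sq_nonneg D]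

lemma ar_le {i : ℕ} (hi : i < M) :
    4 * ar i ≤ H * (η * (1 + 66 * κ ^ 3) + κ ^ 2 / 4 * (PP (tt (i + 1)) - PP (tt i))) := by
  have ht := abs_τ hi
  have hH := H_pos
  have hη := η_pos
  rw [tt_succ, tt_eq]
  unfold ar
  have ht2 : τ i ^ 2 ≤ 1 := by rw [← sq_abs]; nlinarith [abs_nonneg (τ i)]
  obtain ⟨T, hT⟩ : ∃ T, T = τ i ^ 2 := ⟨_, rfl⟩
  have hT0 : 0 ≤ T := hT ▸ sq_nonneg _
  have hT1 : T ≤ 1 := hT ▸ ht2
  obtain ⟨D, hD⟩ : ∃ D, D = al i ^ 2 + 2 * sg i ^ 2 := ⟨_, rfl⟩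
  have hD' : D = κ ^ 2 * ((1 + T - η ^ 2) ^ 2 + 8 * T) := by rw [hD, hT]; unfold al sg; ring
  have hD0 : 0 ≤ D := by rw [hD]; positivity
  have hD1 : D ≤ 12 / 1000000 := by rw [hD']; unfold κ η; nlinarith
  have hD2 : κ ^ 2 * (1 + 10 * T + T ^ 2) - 4 * κ ^ 2 * η ^ 2 ≤ D := by
    rw [hD']; unfold κ η; nlinarith
  obtain ⟨φ, hφ⟩ : ∃ φ, φ = κ ^ 2 * (T + T ^ 2) + 16 * κ ^ 3 := ⟨_, rfl⟩
  have hS : SS i = 1 / 2 + φ := by rw [hφ, hT]; unfold SS; ring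
  have hφ0 : 0 ≤ φ := by rw [hφ]; unfold κ; positivity
  have hφ1 : φ ≤ 3 / 1000000 := by rw [hφ]; unfold κ; nlinarith
  have hP : PP (τ i + η) - PP (τ i - η) = 2 * η * (7 * T ^ 2 - 2 * T - 1) + 28 * T * η ^ 3
      + 14 / 5 * η ^ 5 - 4 / 3 * η ^ 3 := by rw [hT]; unfold PP; ring
  rw [hP, hS, add_assoc, ← hD]
  have h1 := inv_sqrt_le D hD0 (by linarith)
  have h2 : 4 * (1 / 2 + φ) ^ 2 * (1 - D / 2 + D ^ 2 / 2) ≤ 1 + 4 * φ - D / 2 + 120 / 10 ^ 12 := by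
    have a1 : φ ^ 2 ≤ 9 / 10 ^ 12 := by nlinarith
    have a2 : D ^ 2 ≤ 144 / 10 ^ 12 := by nlinarith
    have a3 : 0 ≤ φ * D := mul_nonneg hφ0 hD0
    have a4 : 0 ≤ φ ^ 2 * D := by positivity
    have a5 : φ * D ^ 2 ≤ 1 / 10 ^ 12 := by nlinarith
    have a6 : φ ^ 2 * D ^ 2 ≤ 1 / 10 ^ 12 := by nlinarith [sq_nonneg φ, sq_nonneg D]
    nlinarith
  have h3 : 4 * (H * η * (1 / 2 + φ) ^ 2 / Real.sqrt (1 + D)) =
      H * η * (4 * (1 / 2 + φ) ^ 2 * (1 / Real.sqrt (1 + D))) := by ring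
  rw [h3]
  have h4 : 4 * (1 / 2 + φ) ^ 2 * (1 / Real.sqrt (1 + D)) ≤ 1 + 4 * φ - D / 2 + 120 / 10 ^ 12 :=
    le_trans (mul_le_mul_of_nonneg_left h1 (by positivity)) h2
  rw [mul_assoc]
  apply mul_le_mul_of_nonneg_left _ hH.le
  refine le_trans (mul_le_mul_of_nonneg_left h4 hη.le) ?_
  rw [hφ]
  unfold κ η at *
  nlinarith

lemma sum_ar : 4 * ∑ i : Fin M, ar i < H := by
  rw [Finset.mul_sum, Fin.sum_univ_eq_sum_range (fun i => 4 * ar i)]
  refine lt_of_le_of_lt (Finset.sum_le_sum fun i hi => ar_le (Finset.mem_range.1 hi)) ?_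
  rw [← Finset.mul_sum, Finset.sum_add_distrib, ← Finset.mul_sum _ _ (κ ^ 2 / 4),
    Finset.sum_range_sub (fun i => PP (tt i)), tt_M, tt_zero]
  simp only [Finset.sum_const, Finset.card_range, nsmul_eq_mul]
  have : (M : ℝ) * (η * (1 + 66 * κ ^ 3)) + κ ^ 2 / 4 * (PP 1 - PP (-1)) < 1 := by
    rw [M_eq]; unfold η κ PP; norm_num
  nlinarith [H_pos]

lemma total_lt : ∃ c : ℝ, 0 ≤ c ∧ 2 * c < H ∧ ∑ k, μHE[2] (BB k) = ENNReal.ofReal c := by
  refine ⟨2 * ∑ i : Fin M, ar i, ?_, by linarith [sum_ar], ?_⟩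
  · have := Finset.sum_nonneg (s := Finset.univ) (fun (i : Fin M) _ => ar_nonneg i); linarith
  · simp only [area_BB]
    rw [← ENNReal.ofReal_sum_of_nonneg (fun k _ => ar_nonneg _)]
    congr 1
    rw [Fintype.sum_sum_type]; simp only [Sum.elim_inl, Sum.elim_inr]; ring

lemma BB_sub (k : Fin M ⊕ Fin M) : BB k ⊆ ((ℝ ∙ uu k)ᗮ : Submodule ℝ E3) := by
  rcases k with i | i <;> exact piece_subset _ _ _ _ _

lemma BB_meas (k : Fin M ⊕ Fin M) : MeasurableSet (BB k) := by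
  rcases k with i | i <;> exact measurableSet_piece _ _ _ _

end Vale.Agent.P243
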